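import Vale.Agent.P246.R2.H429.Defs4
import Vale.Agent.P246.T.MX
import Vale.Agent.P246.T.CC
import Vale.Agent.P246.T.MS
import Vale.Agent.P246.T.CL
import Vale.Agent.P246.T.FM
import Mathlib.Analysis.Normed.Module.Connected

/-! # P246, ROW TW4: the finite model of the chains of the covering of a wedge with two-spheres -/

set_option linter.all false

namespace Vale.Agent.P246.H850.TW4

open Topology Metric Set Vale.Agent.P246 Vale.Agent.P246.T Vale.Agent.P246.H429

/-- the push forward only depends on the values on a set which contains the chain -/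
theorem push_congr {M N : Type} [TopologicalSpace M] [TopologicalSpace N] {A : Set M}
    {f g : C(M, N)} (h : ∀ x ∈ A, f x = g x) {n : ℕ} {c : Ch n M} (hc : c ∈ Con A n) :
    push f n c = push g n c := by
  classical
  rw [T.Con, Finsupp.mem_supported] at hc
  change Finsupp.mapDomain _ c = Finsupp.mapDomain _ c
  exact Finsupp.mapDomain_congr fun σ hσ => ContinuousMap.ext fun x => h _ (hc hσ x)

theorem connected_sph : PreconnectedSpace (sphere (0 : Fin 2 → ℝ) 1) := by
  refine Subtype.preconnectedSpace (isPreconnected_sphere ?_ _ _)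
  rw [rank_fin_fun]
  norm_num

section Alg

variable {R M : Type} [Ring R] [AddCommGroup M] [Module R M]

/-- one more generator -/
theorem rank_sup {P A : Submodule R M} (hPA : P ≤ A) {z : M} (hz : ∀ r : R, r • z ∈ A → r = 0)
    {m : ℕ} (hP : Nonempty (P ≃ₗ[R] (Fin m → R))) :
    Nonempty ((P ⊔ Submodule.span R {z} : Submodule R M) ≃ₗ[R] (Fin (m + 1) → R)) := by
  obtain ⟨u⟩ := hP
  let f : (P × R) →ₗ[R] M := P.subtype.coprod (LinearMap.toSpanSingleton R M z)
  have hf : Function.Injective f := by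
    rw [injective_iff_map_eq_zero]
    rintro ⟨x, r⟩ h
    have h1 : (x : M) + r • z = 0 := h
    have hr : r = 0 := hz r (by
      rw [eq_neg_of_add_eq_zero_right h1]
      exact Submodule.neg_mem _ (hPA x.2))
    subst hr
    rw [zero_smul, add_zero] at h1
    exact Prod.ext (Subtype.ext h1) rfl
  have hrange : LinearMap.range f = P ⊔ Submodule.span R {z} := by
    rw [LinearMap.range_coprod, Submodule.range_subtype, LinearMap.range_toSpanSingleton]
  have e := (LinearEquiv.ofInjective f hf).trans (LinearEquiv.ofEq _ _ hrange)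
  exact ⟨e.symm.trans (((LinearEquiv.prodCongr u (LinearEquiv.refl R R)).trans
    (LinearEquiv.prodComm R _ _)).trans (Fin.consLinearEquiv R (fun _ : Fin (m + 1) => R)))⟩

end Alg

section

variable {G W F : Type} [Group G] [TopologicalSpace W] [T2Space W]
  [TopologicalSpace F] [MulAction G F] [ContinuousConstSMul G F] {q : C(F, W)}

/-- the lift of a cell with constant attaching map is constant on the boundary -/
theorem bdry_const (hq : IsQuotientCoveringMap q G) {Φ : C(Dk 2, W)} {a : W}
    (hΦ : ∀ z : Dk 2, ‖(z : Fin 2 → ℝ)‖ = 1 → Φ z = a) (Ψ : C(Dk 2, F))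
    (hΨ : ∀ x, q (Ψ x) = Φ x) : ∃ e : F, q e = a ∧ ∀ x ∈ bdk 2, Ψ x = e := by
  have hc := connected_sph
  have h1 : ‖(fun _ => 1 : Fin 2 → ℝ)‖ = 1 := by
    rw [pi_norm_const]; norm_num
  let x0 : sphere (0 : Fin 2 → ℝ) 1 := ⟨fun _ => 1, by rw [mem_sphere_zero_iff_norm]; exact h1⟩
  let j : sphere (0 : Fin 2 → ℝ) 1 → Dk 2 := fun x => ⟨x, sphere_subset_closedBall x.2⟩
  have hj : Continuous j := Continuous.subtype_mk continuous_subtype_val _
  have hn : ∀ x, ‖(j x : Fin 2 → ℝ)‖ = 1 := fun x => mem_sphere_zero_iff_norm.1 x.2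
  have hcon := hq.isCoveringMap.const_of_comp (A := sphere (0 : Fin 2 → ℝ) 1)
    (g := fun x => Ψ (j x)) (Ψ.continuous.comp hj) (fun x y => by
      change q (Ψ (j x)) = q (Ψ (j y))
      rw [hΨ, hΨ, hΦ _ (hn x), hΦ _ (hn y)])
  refine ⟨Ψ (j x0), by rw [hΨ, hΦ _ (hn x0)], fun x hx => ?_⟩
  have hx' : ‖(x : Fin 2 → ℝ)‖ = 1 := hx
  exact hcon ⟨x, by rw [mem_sphere_zero_iff_norm]; exact hx'⟩ x0

theorem sph_model (hq : IsQuotientCoveringMap q G) {C : Set W} (hC : IsClosed C)
    {P : ∀ n, Submodule (ZG G) (SC G n F)}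
    (hP : IsFinModel (fun n => SC G n F) (fun n => SC.d G n F) (Step.SA hq C) P)
    {B : Set W} {t : ℕ} (hB : Sph C B t) : IsClosed B ∧ C ⊆ B ∧
    ∃ Z : Submodule (ZG G) (SC G 2 F), Nonempty (Z ≃ₗ[ZG G] (Fin t → ZG G)) ∧
      (∀ z ∈ Z, SC.d G 1 F z = 0) ∧ Disjoint (P 2) Z ∧
      IsFinModel (fun n => SC G n F) (fun n => SC.d G n F) (Step.SA hq B)
        (Function.update P 2 (P 2 ⊔ Z)) := by
  induction hB with
  | base =>
    refine ⟨hC, subset_rfl, ⊥, ⟨LinearEquiv.ofSubsingleton _ _⟩, fun z hz => ?_,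
      disjoint_bot_right, ?_⟩
    · rw [(Submodule.mem_bot _).1 hz, map_zero]
    · rw [sup_bot_eq, Function.update_eq_self]
      exact hP
  | @cell A B t Φ a _ ha hΦ h ih =>
    obtain ⟨hA, hCA, Z, hZ1, hZ2, hZ3, hM⟩ := ih
    obtain ⟨Ψ, hΨ⟩ := MX.exists_lift hq Φ
    obtain ⟨ζ, hζ⟩ := (FM.main PR.main CC.main1 CL.main).1 2
    obtain ⟨e, he, hbe⟩ := bdry_const hq hΦ Ψ hΨ
    -- the cycle
    have hb : bd 1 (push Ψ 2 ζ) = FM.wt 1 (bd 1 ζ) • ksx 1 e := by
      rw [push_bd, ← FM.push_const]
      exact push_congr (A := bdk 2) (fun x hx => hbe x hx) hζ.cyc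
    set m : ℤ := FM.wt 1 (bd 1 ζ) with hm
    set z : SC G 2 F := SC.mk G (push Ψ 2 ζ - m • ksx 2 e) with hz
    have hkb : bd 1 (ksx 2 e) = ksx 1 e := by
      rw [FM.bd_ksx]
      simp [Fin.sum_univ_succ]
    have hdz : SC.d G 1 F z = 0 := by
      apply SC.un_inj
      rw [SC.un_d, hz, SC.un_mk, map_sub, map_smul, hb, hkb, sub_self]
      rfl
    have hkA : ksx 2 e ∈ Con (q ⁻¹' A) 2 := by
      rw [ksx]
      refine Finsupp.single_mem_supported ℤ _ fun y => ?_
      change q e ∈ A
      rw [he]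
      exact hCA ha
    have hzA : z.un - push Ψ 2 ζ ∈ Con (q ⁻¹' A) 2 := by
      rw [hz, SC.un_mk, sub_sub_cancel_left]
      exact Submodule.neg_mem _ (Submodule.smul_mem _ _ hkA)
    have hcl : IsClosed B := by
      rw [h.eq]
      exact hA.union (isCompact_range Φ.continuous).isClosed
    have hCB : C ⊆ B := by
      rw [h.eq]
      exact hCA.trans subset_union_left
    obtain ⟨h1, h2⟩ := Step.step MS.main CC.main2 CL.main hq Ψ hA h hΨ hζ hM.toIsModel z hzA (by
      change SC.d G 1 F z ∈ Function.update P 2 (P 2 ⊔ Z) 1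
      rw [hdz]
      exact Submodule.zero_mem _)
    have hle : P 2 ⊔ Z ≤ Step.SA hq A 2 := by
      have := hM.le 2
      rwa [Function.update_self] at this
    have hupd : Function.update (Function.update P 2 (P 2 ⊔ Z)) 2
        (Function.update P 2 (P 2 ⊔ Z) 2 ⊔ Submodule.span (ZG G) {z}) =
        Function.update P 2 (P 2 ⊔ (Z ⊔ Submodule.span (ZG G) {z})) := by
      rw [Function.update_self, Function.update_idem, sup_assoc]
    rw [hupd] at h1
    refine ⟨hcl, hCB, Z ⊔ Submodule.span (ZG G) {z}, rank_sup (le_sup_right.trans hle) h2 hZ1,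
      ?_, ?_, { toIsModel := h1, free := fun k => ?_, fin := fun k => ?_, bdd := ?_ }⟩
    · intro x hx
      obtain ⟨y, hy, w, hw, rfl⟩ := Submodule.mem_sup.1 hx
      obtain ⟨r, rfl⟩ := Submodule.mem_span_singleton.1 hw
      rw [map_add, map_smul, hZ2 y hy, hdz, smul_zero, add_zero]
    · rw [Submodule.disjoint_def] at hZ3 ⊢
      intro x hx hx'
      obtain ⟨y, hy, w, hw, rfl⟩ := Submodule.mem_sup.1 hx'
      obtain ⟨r, rfl⟩ := Submodule.mem_span_singleton.1 hw
      have hr : r = 0 := h2 r (by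
        have e1 : r • z = (y + r • z) - y := by abel
        rw [e1]
        exact Submodule.sub_mem _ (hle (Submodule.mem_sup_left hx))
          (hle (Submodule.mem_sup_right hy)))
      subst hr
      rw [zero_smul, add_zero] at hx ⊢
      exact hZ3 y hx hy
    · by_cases hk : k = 2
      · subst hk
        rw [Function.update_self, ← sup_assoc]
        have := hM.free 2
        rw [Function.update_self] at this
        exact MX.free_sup hle h2 this
      · have := hM.free k
        rw [Function.update_of_ne hk] at this ⊢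
        exact this
    · by_cases hk : k = 2
      · subst hk
        rw [Function.update_self, ← sup_assoc]
        have := hM.fin 2
        rw [Function.update_self] at this
        exact MX.finite_sup z this
      · have := hM.fin k
        rw [Function.update_of_ne hk] at this ⊢
        exact this
    · obtain ⟨N, hN⟩ := hP.bdd
      refine ⟨max N 2, fun k hk => ?_⟩
      rw [Function.update_of_ne (by have := le_max_right N 2; omega)]
      exact hN k (lt_of_le_of_lt (le_max_left N 2) hk)

end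

/-- ROW TW4 -/
theorem main : SpecChW := by
  intro G W F _ _ _ _ _ _ q hq C t hC hS P hP
  obtain ⟨-, -, Z, h1, h2, h3, h4⟩ := sph_model hq hC hP hS
  refine ⟨Z, h1, h2, h3, ?_⟩
  have e : (Step.SA hq univ : ∀ n, Submodule (ZG G) (SC G n F)) = fun _ => ⊤ := by
    funext n
    rw [eq_top_iff]
    intro x _
    rw [Step.mem_SA, preimage_univ]
    exact PR.Con_univ _
  rw [← e]
  exact h4

end Vale.Agent.P246.H850.TW4
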